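import Mathlib

/-!
# P064 (general hosts and forests): a connected induced piece of a forest is a tree

D5 of the package: if `F` is acyclic and the graph induced on the finite vertex set `W` is
connected, it is a tree and hence has `|W| - 1` edges.
-/

namespace Vale.Agent.Lib.P064D
open SimpleGraph Finset

/-- D5: a connected induced piece of a forest is a tree. -/
theorem tree_piece_edges {V : Type} [Fintype V] [DecidableEq V] (F : SimpleGraph V)
    (hF : F.IsAcyclic) (W : Finset V) (hW : (F.induce (W : Set V)).Connected) :
    (F.induce (W : Set V)).edgeSet.ncard + 1 = W.card := by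
  classical
  have hT : (F.induce (W : Set V)).IsTree := ⟨hW, hF.induce _⟩
  have h1 := hT.card_edgeFinset
  have h2 : (F.induce (W : Set V)).edgeFinset.card = (F.induce (W : Set V)).edgeSet.ncard := by
    rw [← Set.ncard_coe_finset, SimpleGraph.coe_edgeFinset]
  have h3 : Fintype.card (W : Set V) = W.card := by
    rw [← Nat.card_eq_fintype_card, Nat.card_coe_set_eq, Set.ncard_coe_finset]
  rw [h2, h3] at h1
  exact h1

end Vale.Agent.Lib.P064D
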