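import Vale.Agent.Lib.P064D.RootedTotal
import Vale.Agent.Lib.P064D.TreePiece
import Vale.Agent.Lib.Helper2.P064DForest

/-!
(D6) of the package general hosts and forests for P064: labelled copies of a forest in a host
of maximum degree at most `D`.
-/

namespace Vale.Agent.Lib.P064D
open SimpleGraph Finset

/-- D6, file `ForestLabelled.lean`: labelled copies of a forest in a host of maximum degree at
most `D` (pieces B5 + B6, D4, D5, arithmetic: `n^m D^(v-m) (n-v)! ≤ n! (e² D / n)^(v-m)`). -/
theorem forest_labelled {n : ℕ} (H : SimpleGraph (Fin n)) (D : ℕ)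
    (hD : ∀ v, (H.neighborSet v).ncard ≤ D) (F : SimpleGraph (Fin n)) (hF : F.IsAcyclic) :
    (H.labelledCopyCount F : ℝ) ≤
      (n.factorial : ℝ) * (Real.exp 2 * (D : ℝ) / (n : ℝ)) ^ F.edgeSet.ncard := by
  refine Vale.Agent.Lib.Helper2.P064DForest.forest_labelled_of H D F ?_ ?_
  · intro W hW
    have h := labelled_le_rooted (F.induce (W : Set (Fin n))) hW H D hD
    have hc : Fintype.card (↥(W : Set (Fin n))) = W.card := by simp
    rw [hc] at h
    exact h
  · intro W hW
    exact tree_piece_edges F hF W hW

end Vale.Agent.Lib.P064D
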