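import Vale.Agent.Lib.P064S.Main
import Vale.Agent.Lib.P064S.Orbit
import Vale.Agent.Lib.P064S.Edges

/-!
P064, D1: under the unit hypothesis at density `q`, every degree of the host `H` is at most
`max ⌈6 n q⌉ ⌊log₂ n⌋`. The hypothesis is applied to the star at `v` (`meet H {v}`), which has at
most `n * C(n, d)` copies in the complete graph.
-/

namespace Vale.Agent.Lib.P064D
open SimpleGraph Finset

theorem degree_le_of_hyp {n : ℕ} (H : SimpleGraph (Fin n)) (q : ℝ) (hq0 : 0 ≤ q)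
    (hyp : ∀ F : SimpleGraph (Fin n), F ≤ H →
      1 ≤ ((⊤ : SimpleGraph (Fin n)).copyCount F : ℝ) * q ^ F.edgeSet.ncard)
    (v : Fin n) :
    (H.neighborSet v).ncard ≤ max ⌈6 * (n : ℝ) * q⌉₊ (Nat.log 2 n) := by
  classical
  set d := (H.neighborSet v).ncard with hd
  have hn0 : (0 : ℝ) ≤ (n : ℝ) := Nat.cast_nonneg n
  by_contra hcon
  rw [not_le, max_lt_iff] at hcon
  obtain ⟨hceil, hlog⟩ := hcon
  have hdpos : 0 < d := by omega
  have hdr : (0 : ℝ) < (d : ℝ) := by exact_mod_cast hdpos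
  have hbig : 6 * (n : ℝ) * q < (d : ℝ) := by
    have h1 : 6 * (n : ℝ) * q ≤ (⌈6 * (n : ℝ) * q⌉₊ : ℝ) := Nat.le_ceil _
    have h2 : ((⌈6 * (n : ℝ) * q⌉₊ : ℕ) : ℝ) < (d : ℝ) := by exact_mod_cast hceil
    linarith
  have hpow : n < 2 ^ d := Nat.lt_pow_of_log_lt (by norm_num) hlog
  have hdn : d ≤ n - 1 := Vale.Agent.Lib.P064S.deg_le H v
  have hdn' : (d : ℝ) ≤ (n : ℝ) := by exact_mod_cast (hdn.trans (Nat.sub_le n 1))
  have hq1 : q ≤ 1 := by
    by_contra hq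
    rw [not_le] at hq
    nlinarith
  -- the star at `v`
  have hI : ∀ a ∈ ({v} : Finset (Fin n)), ∀ b ∈ ({v} : Finset (Fin n)), ¬ H.Adj a b := by
    intro a ha b hb
    rw [Finset.mem_singleton] at ha hb
    rw [ha, hb]
    exact H.irrefl
  have hdI : ∀ a ∈ ({v} : Finset (Fin n)), (H.neighborSet a).ncard = d := by
    intro a ha
    rw [Finset.mem_singleton] at ha
    rw [ha]
  have hcc := Vale.Agent.Lib.P064S.copyCount_meet_le H {v} d hI hdI
  have hee := Vale.Agent.Lib.P064S.meet_edges H {v} d hI hdI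
  rw [Finset.card_singleton] at hcc hee
  rw [Nat.choose_one_right, pow_one] at hcc
  rw [one_mul] at hee
  have hh := hyp _ (Vale.Agent.Lib.P064S.meet_le H {v})
  have h1 : (1 : ℝ) ≤ (n : ℝ) * (n.choose d : ℝ) * q ^ d := by
    calc (1 : ℝ) ≤ ((⊤ : SimpleGraph (Fin n)).copyCount (Vale.Agent.Lib.P064S.meet H {v}) : ℝ)
          * q ^ (Vale.Agent.Lib.P064S.meet H {v}).edgeSet.ncard := hh
      _ ≤ ((n * n.choose d : ℕ) : ℝ) * q ^ d :=
          mul_le_mul (by exact_mod_cast hcc) (pow_le_pow_of_le_one hq0 hq1 hee)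
            (by positivity) (by positivity)
      _ = (n : ℝ) * (n.choose d : ℝ) * q ^ d := by push_cast; ring
  have h2 : (d.factorial : ℝ) * (n.choose d : ℝ) ≤ (n : ℝ) ^ d := by
    have h := Nat.descFactorial_le_pow n d
    rw [Nat.descFactorial_eq_factorial_mul_choose] at h
    exact_mod_cast h
  set X : ℝ := (n : ℝ) * q with hX
  have hX0 : 0 ≤ X := by positivity
  have hf0 : (0 : ℝ) < (d.factorial : ℝ) := by exact_mod_cast Nat.factorial_pos d
  have h3 : (d.factorial : ℝ) ≤ (n : ℝ) * X ^ d := by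
    calc (d.factorial : ℝ) = (d.factorial : ℝ) * 1 := (mul_one _).symm
      _ ≤ (d.factorial : ℝ) * ((n : ℝ) * (n.choose d : ℝ) * q ^ d) :=
          mul_le_mul_of_nonneg_left h1 hf0.le
      _ = (n : ℝ) * ((d.factorial : ℝ) * (n.choose d : ℝ)) * q ^ d := by ring
      _ ≤ (n : ℝ) * (n : ℝ) ^ d * q ^ d :=
          mul_le_mul_of_nonneg_right (mul_le_mul_of_nonneg_left h2 hn0) (pow_nonneg hq0 d)
      _ = (n : ℝ) * X ^ d := by rw [hX, mul_pow]; ring
  have h4 : (d : ℝ) ^ d ≤ Real.exp d * (d.factorial : ℝ) := by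
    have h := Real.pow_div_factorial_le_exp (d : ℝ) (Nat.cast_nonneg d) d
    rwa [div_le_iff₀ hf0] at h
  have h5 : Real.exp d ≤ (3 : ℝ) ^ d := by
    have h := Real.exp_one_lt_d9
    have h' : Real.exp d = Real.exp 1 ^ d := by rw [← Real.exp_nat_mul, mul_one]
    rw [h']
    exact pow_le_pow_left₀ (Real.exp_pos 1).le (by linarith) d
  have h6 : (6 * X) ^ d ≤ (d : ℝ) ^ d := by
    refine pow_le_pow_left₀ (by positivity) ?_ d
    have : 6 * X = 6 * (n : ℝ) * q := by rw [hX]; ring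
    rw [this]
    exact hbig.le
  have h7 : (6 : ℝ) ^ d * X ^ d ≤ (3 : ℝ) ^ d * ((n : ℝ) * X ^ d) := by
    calc (6 : ℝ) ^ d * X ^ d = (6 * X) ^ d := (mul_pow _ _ _).symm
      _ ≤ (d : ℝ) ^ d := h6
      _ ≤ Real.exp d * (d.factorial : ℝ) := h4
      _ ≤ (3 : ℝ) ^ d * ((n : ℝ) * X ^ d) :=
          mul_le_mul h5 h3 hf0.le (by positivity)
  have hXd : 0 ≤ X ^ d := pow_nonneg hX0 d
  rcases hXd.eq_or_lt with hz | hp
  · rw [← hz, mul_zero] at h3
    linarith
  · have hnlt : (n : ℝ) < (2 : ℝ) ^ d := by exact_mod_cast hpow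
    have h8 : (3 : ℝ) ^ d * ((n : ℝ) * X ^ d) < (6 : ℝ) ^ d * X ^ d := by
      have h63 : (6 : ℝ) ^ d = 3 ^ d * 2 ^ d := by rw [← mul_pow]; norm_num
      rw [h63]
      have h3pos : (0 : ℝ) < (3 : ℝ) ^ d := by positivity
      have : (n : ℝ) * X ^ d < (2 : ℝ) ^ d * X ^ d := mul_lt_mul_of_pos_right hnlt hp
      nlinarith
    linarith

end Vale.Agent.Lib.P064D
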