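import Vale.Agent.Lib.P064B.Rooted
import Vale.Agent.Lib.Helper7.P064M

/-!
P064 (forests in hosts of bounded degree): all labelled copies of a connected graph.
-/

namespace Vale.Agent.Lib.P064D
open SimpleGraph Finset
open Vale.Agent.Lib.Helper7.P064M

/-- D4: a connected graph on `w` vertices has at most `n * D ^ (w - 1)` labelled copies in a host
on `Fin n` of maximum degree at most `D`. -/
theorem labelled_le_rooted {U : Type} [Fintype U] {n : ℕ} (P : SimpleGraph U) (hP : P.Connected)
    (H : SimpleGraph (Fin n)) (D : ℕ) (hD : ∀ v, (H.neighborSet v).ncard ≤ D) :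
    H.labelledCopyCount P ≤ n * D ^ (Fintype.card U - 1) := by
  classical
  obtain ⟨u⟩ := hP.nonempty
  have hfin : Finite (Copy P H) :=
    Finite.of_injective (fun f : Copy P H => (⇑f : U → Fin n)) DFunLike.coe_injective
  rw [labelled_eq_natCard]
  have h1 : Nat.card (Copy P H) = Nat.card (Σ x : Fin n, {f : Copy P H // f u = x}) :=
    Nat.card_congr (Equiv.sigmaFiberEquiv (fun f : Copy P H => f u)).symm
  rw [h1, Nat.card_sigma]
  calc ∑ x : Fin n, Nat.card {f : Copy P H // f u = x}
      ≤ ∑ _x : Fin n, D ^ (Fintype.card U - 1) :=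
        Finset.sum_le_sum (fun x _ => Vale.Agent.Lib.P064B.rooted_copies_le P hP H D hD u x)
    _ = n * D ^ (Fintype.card U - 1) := by
        rw [Finset.sum_const, Finset.card_univ, Fintype.card_fin, smul_eq_mul]

end Vale.Agent.Lib.P064D
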