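import Vale.Agent.Lib.P064B.Host
import Vale.Agent.Lib.P064D.Degree
import Vale.Agent.Lib.Helper6.P064DForest

/-!
# P064, forests in arbitrary hosts (D7, D8)

Under the unit hypothesis at `q` every degree of `H` is at most `max ⌈6 n q⌉ ⌊log₂ n⌋` (D1), and a
forest `F` has at most `n! (e² D / n)^e(F)` labelled copies in a host of maximum degree at most
`D` (D6).  Together: for every host `H` and every forest `F`,
`N(H, F) ≤ N(K_n, F) * (min 1 (8 (6 q + (1 + log₂ n) / n)))^e(F)`, and for forest hosts the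
fractional expectation threshold is at most `96` times the expectation threshold plus
`8 (1 + log₂ n) / n`.
-/

namespace Vale.Agent.Lib.P064D
open SimpleGraph Finset
open Vale.Agent.Lib.Helper7.P064M

theorem fc_exp_two_le_eight : Real.exp 2 ≤ 8 := by
  have h2 : Real.exp 2 = Real.exp 1 * Real.exp 1 := by
    rw [← Real.exp_add]
    norm_num
  have h1 := Real.exp_one_lt_d9
  have h0 := Real.exp_pos 1
  rw [h2]
  nlinarith

/-- The degree bound of D1 as a real number. -/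
theorem fc_max_ceil_log_le (n : ℕ) (q : ℝ) (hq0 : 0 ≤ q) :
    ((max ⌈6 * (n : ℝ) * q⌉₊ (Nat.log 2 n) : ℕ) : ℝ) ≤
      6 * (n : ℝ) * q + 1 + (Nat.log 2 n : ℝ) := by
  have hx : (0 : ℝ) ≤ 6 * (n : ℝ) * q := by positivity
  have h1 : ((⌈6 * (n : ℝ) * q⌉₊ : ℕ) : ℝ) < 6 * (n : ℝ) * q + 1 := Nat.ceil_lt_add_one hx
  have h2 : (0 : ℝ) ≤ (Nat.log 2 n : ℝ) := Nat.cast_nonneg _
  rcases le_total ⌈6 * (n : ℝ) * q⌉₊ (Nat.log 2 n) with h | h
  · rw [max_eq_right h]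
    linarith
  · rw [max_eq_left h]
    linarith

/-- The base of the power: `e² D / n ≤ 8 (6 q + (1 + log₂ n) / n)` for the degree bound of D1. -/
theorem fc_base_le (n : ℕ) (q : ℝ) (hq0 : 0 ≤ q) :
    Real.exp 2 * ((max ⌈6 * (n : ℝ) * q⌉₊ (Nat.log 2 n) : ℕ) : ℝ) / (n : ℝ) ≤
      8 * (6 * q + (1 + (Nat.log 2 n : ℝ)) / (n : ℝ)) := by
  have hL : (0 : ℝ) ≤ (Nat.log 2 n : ℝ) := Nat.cast_nonneg _
  rcases Nat.eq_zero_or_pos n with hn | hn
  · subst hn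
    simp only [Nat.cast_zero, div_zero]
    positivity
  · have hn' : (0 : ℝ) < (n : ℝ) := by exact_mod_cast hn
    have hD := fc_max_ceil_log_le n q hq0
    have hD0 : (0 : ℝ) ≤ ((max ⌈6 * (n : ℝ) * q⌉₊ (Nat.log 2 n) : ℕ) : ℝ) := Nat.cast_nonneg _
    have he := fc_exp_two_le_eight
    have he0 : (0 : ℝ) ≤ Real.exp 2 := (Real.exp_pos 2).le
    rw [div_le_iff₀ hn']
    have h3 : 8 * (6 * q + (1 + (Nat.log 2 n : ℝ)) / (n : ℝ)) * (n : ℝ) =
        8 * (6 * (n : ℝ) * q + 1 + (Nat.log 2 n : ℝ)) := by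
      field_simp
      ring
    rw [h3]
    calc Real.exp 2 * ((max ⌈6 * (n : ℝ) * q⌉₊ (Nat.log 2 n) : ℕ) : ℝ)
        ≤ 8 * ((max ⌈6 * (n : ℝ) * q⌉₊ (Nat.log 2 n) : ℕ) : ℝ) :=
          mul_le_mul_of_nonneg_right he hD0
      _ ≤ 8 * (6 * (n : ℝ) * q + 1 + (Nat.log 2 n : ℝ)) := by linarith

/-- Labelled form of D7. -/
theorem fc_forest_labelled_general {n : ℕ} (H : SimpleGraph (Fin n)) (q : ℝ) (hq0 : 0 ≤ q)
    (hyp : ∀ F : SimpleGraph (Fin n), F ≤ H →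
      1 ≤ ((⊤ : SimpleGraph (Fin n)).copyCount F : ℝ) * q ^ F.edgeSet.ncard)
    (F : SimpleGraph (Fin n)) (hF : F.IsAcyclic) :
    (H.labelledCopyCount F : ℝ) ≤
      ((⊤ : SimpleGraph (Fin n)).labelledCopyCount F : ℝ) *
        (min 1 (8 * (6 * q + (1 + (Nat.log 2 n : ℝ)) / (n : ℝ)))) ^ F.edgeSet.ncard := by
  have hle := labelled_le_desc H F
  rw [labelled_top, Fintype.card_fin, Nat.descFactorial_self]
  rw [Fintype.card_fin, Nat.descFactorial_self] at hle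
  have hle' : (H.labelledCopyCount F : ℝ) ≤ (n.factorial : ℝ) := by
    exact_mod_cast hle
  by_cases h1 : 1 ≤ 8 * (6 * q + (1 + (Nat.log 2 n : ℝ)) / (n : ℝ))
  · rw [min_eq_left h1, one_pow, mul_one]
    exact hle'
  · rw [min_eq_right (le_of_not_ge h1)]
    have hD := degree_le_of_hyp H q hq0 hyp
    have hlab := Vale.Agent.Lib.Helper6.P064DForest.forest_labelled H _ hD F hF
    have hbase := fc_base_le n q hq0
    have hb0 : (0 : ℝ) ≤
        Real.exp 2 * ((max ⌈6 * (n : ℝ) * q⌉₊ (Nat.log 2 n) : ℕ) : ℝ) / (n : ℝ) := by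
      positivity
    calc (H.labelledCopyCount F : ℝ)
        ≤ (n.factorial : ℝ) *
          (Real.exp 2 * ((max ⌈6 * (n : ℝ) * q⌉₊ (Nat.log 2 n) : ℕ) : ℝ) / (n : ℝ)) ^
            F.edgeSet.ncard := hlab
      _ ≤ (n.factorial : ℝ) *
          (8 * (6 * q + (1 + (Nat.log 2 n : ℝ)) / (n : ℝ))) ^ F.edgeSet.ncard :=
          mul_le_mul_of_nonneg_left (pow_le_pow_left₀ hb0 hbase _) (Nat.cast_nonneg _)

/-- D7: counting inequality for forests `F` in an arbitrary host. -/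
theorem forest_copies {n : ℕ} (H : SimpleGraph (Fin n)) (q : ℝ) (hq0 : 0 ≤ q)
    (hyp : ∀ F : SimpleGraph (Fin n), F ≤ H →
      1 ≤ ((⊤ : SimpleGraph (Fin n)).copyCount F : ℝ) * q ^ F.edgeSet.ncard)
    (F : SimpleGraph (Fin n)) (hF : F.IsAcyclic) :
    (H.copyCount F : ℝ) ≤
      ((⊤ : SimpleGraph (Fin n)).copyCount F : ℝ) *
        (min 1 (8 * (6 * q + (1 + (Nat.log 2 n : ℝ)) / (n : ℝ)))) ^ F.edgeSet.ncard :=
  copies_of_labelled H ⊤ F _ (fc_forest_labelled_general H q hq0 hyp F hF)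

/-- D8: threshold form for forest hosts. -/
theorem forest_threshold {n : ℕ} (H : SimpleGraph (Fin n)) (hH : H.IsAcyclic) :
    fracExpThreshold H ≤ 96 * expThreshold H + 8 * (1 + (Nat.log 2 n : ℝ)) / (n : ℝ) := by
  have hL : (0 : ℝ) ≤ (Nat.log 2 n : ℝ) := Nat.cast_nonneg _
  have hc0 : (0 : ℝ) ≤ (1 + (Nat.log 2 n : ℝ)) / (n : ℝ) := by positivity
  have key : ∀ q ∈ {p : ℝ | 0 ≤ p ∧ p ≤ 1 ∧
      ∀ F : SimpleGraph (Fin n), F ≤ H → 1 / 2 ≤ expCopies F p},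
      fracExpThreshold H ≤ 96 * q + 8 * (1 + (Nat.log 2 n : ℝ)) / (n : ℝ) := by
    intro q hq
    obtain ⟨hq0, -, hq2⟩ := hq
    have hq'0 : 0 ≤ min 1 (2 * q) := le_min zero_le_one (by positivity)
    have hq'2 : min 1 (2 * q) ≤ 2 * q := min_le_right _ _
    have hy0 : (0 : ℝ) ≤ 8 * (6 * min 1 (2 * q) + (1 + (Nat.log 2 n : ℝ)) / (n : ℝ)) := by
      positivity
    have hmem : min 1 (8 * (6 * min 1 (2 * q) + (1 + (Nat.log 2 n : ℝ)) / (n : ℝ))) ∈
        {p : ℝ | 0 ≤ p ∧ p ≤ 1 ∧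
          ∀ F : SimpleGraph (Fin n), F ≤ H → (H.copyCount F : ℝ) / 2 ≤ expCopies F p} := by
      refine ⟨le_min zero_le_one hy0, min_le_left _ _, fun F hFH => ?_⟩
      have h1 := forest_copies H (min 1 (2 * q)) hq'0 (hyp_double H q hq0 hq2) F
        (hH.anti hFH)
      have h0 : (0 : ℝ) ≤ (H.copyCount F : ℝ) := Nat.cast_nonneg _
      unfold expCopies
      linarith
    have h2 := le_trans (csInf_le (bddBelow_frac H) hmem) (min_le_right _ _)
    have h3 : 8 * (6 * min 1 (2 * q) + (1 + (Nat.log 2 n : ℝ)) / (n : ℝ)) ≤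
        96 * q + 8 * (1 + (Nat.log 2 n : ℝ)) / (n : ℝ) := by
      have : 8 * (1 + (Nat.log 2 n : ℝ)) / (n : ℝ) =
          8 * ((1 + (Nat.log 2 n : ℝ)) / (n : ℝ)) := by ring
      rw [this]
      linarith
    exact le_trans h2 h3
  have h5 : (fracExpThreshold H - 8 * (1 + (Nat.log 2 n : ℝ)) / (n : ℝ)) / 96 ≤
      expThreshold H := by
    refine le_csInf ⟨1, one_mem_exp H⟩ (fun q hq => ?_)
    rw [div_le_iff₀ (by norm_num : (0 : ℝ) < 96)]
    have := key q hq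
    linarith
  rw [div_le_iff₀ (by norm_num : (0 : ℝ) < 96)] at h5
  linarith

end Vale.Agent.Lib.P064D
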