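import Vale.Agent.Lib.P064B.Host
import Vale.Agent.Lib.P064D.Degree
import Vale.Agent.Lib.Helper7.P064Thr2

/-!
P064, every host: the unit hypothesis bounds the maximum degree (`degree_le_of_hyp`), and the
bounded degree results then give the counting inequality and the comparison of the two
expectation thresholds for every graph `H`.
-/

namespace Vale.Agent.Lib.P064D
open SimpleGraph Finset
open Vale.Agent.Lib.Helper7.P064M

/-- D2: counting inequality for every host (from `bounded_degree_copies`). -/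
theorem general_copies {n : ℕ} (H : SimpleGraph (Fin n)) (q : ℝ) (hq0 : 0 ≤ q)
    (hyp : ∀ F : SimpleGraph (Fin n), F ≤ H →
      1 ≤ ((⊤ : SimpleGraph (Fin n)).copyCount F : ℝ) * q ^ F.edgeSet.ncard)
    (F : SimpleGraph (Fin n)) :
    (H.copyCount F : ℝ) ≤
      ((⊤ : SimpleGraph (Fin n)).copyCount F : ℝ) *
        (min 1 (89 * ((max ⌈6 * (n : ℝ) * q⌉₊ (Nat.log 2 n) : ℕ) : ℝ) * q)) ^ F.edgeSet.ncard :=
  Vale.Agent.Lib.P064B.bounded_degree_copies H _ (degree_le_of_hyp H q hq0 hyp) q hq0 hyp F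

/-- D3: threshold form for every host. -/
theorem general_threshold {n : ℕ} (H : SimpleGraph (Fin n)) :
    fracExpThreshold H ≤
      178 * (12 * (n : ℝ) * expThreshold H + (Nat.log 2 n : ℝ) + 1) * expThreshold H := by
  obtain ⟨hq0, -, hq2⟩ := expThreshold_mem H
  have hq'0 : 0 ≤ min 1 (2 * expThreshold H) := le_min zero_le_one (by positivity)
  have hD : ∀ v : Fin n, (H.neighborSet v).ncard
      ≤ max ⌈6 * (n : ℝ) * min 1 (2 * expThreshold H)⌉₊ (Nat.log 2 n) :=
    fun v => degree_le_of_hyp H (min 1 (2 * expThreshold H)) hq'0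
      (hyp_double H (expThreshold H) hq0 hq2) v
  have h1 := Vale.Agent.Lib.P064B.bounded_degree_threshold H _ hD
  have hx0 : 0 ≤ 6 * (n : ℝ) * min 1 (2 * expThreshold H) := by positivity
  have hceil : ((⌈6 * (n : ℝ) * min 1 (2 * expThreshold H)⌉₊ : ℕ) : ℝ)
      ≤ 12 * (n : ℝ) * expThreshold H + 1 := by
    have h2 := (Nat.ceil_lt_add_one hx0).le
    have h3 : min 1 (2 * expThreshold H) ≤ 2 * expThreshold H := min_le_right _ _
    have hn : (0 : ℝ) ≤ 6 * (n : ℝ) := by positivity
    have h4 := mul_le_mul_of_nonneg_left h3 hn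
    linarith
  have hmax : ((max ⌈6 * (n : ℝ) * min 1 (2 * expThreshold H)⌉₊ (Nat.log 2 n) : ℕ) : ℝ)
      ≤ 12 * (n : ℝ) * expThreshold H + (Nat.log 2 n : ℝ) + 1 := by
    rw [Nat.cast_max]
    have hl : (0 : ℝ) ≤ (Nat.log 2 n : ℝ) := Nat.cast_nonneg _
    have hp : (0 : ℝ) ≤ 12 * (n : ℝ) * expThreshold H := by positivity
    exact max_le (by linarith) (by linarith)
  calc fracExpThreshold H
      ≤ 178 * ((max ⌈6 * (n : ℝ) * min 1 (2 * expThreshold H)⌉₊ (Nat.log 2 n) : ℕ) : ℝ)
          * expThreshold H := h1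
    _ ≤ 178 * (12 * (n : ℝ) * expThreshold H + (Nat.log 2 n : ℝ) + 1) * expThreshold H := by
        refine mul_le_mul_of_nonneg_right ?_ hq0
        exact mul_le_mul_of_nonneg_left hmax (by norm_num)

end Vale.Agent.Lib.P064D
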